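import Vale.Agent.Lib.P064B.Main
import Vale.Agent.Lib.Helper7.P064Thr

/-!
P064, hosts of bounded maximum degree: ordinary copies, the passage from the half-hypothesis, and
the comparison of the two expectation thresholds.
-/

namespace Vale.Agent.Lib.P064B
open SimpleGraph Finset
open Vale.Agent.Lib.Helper7.P064M

/-- The counting inequality for ordinary copies, host of maximum degree at most `D`. -/
theorem bounded_degree_copies {n : ℕ} (H : SimpleGraph (Fin n)) (D : ℕ)
    (hD : ∀ v, (H.neighborSet v).ncard ≤ D) (q : ℝ) (hq0 : 0 ≤ q)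
    (hyp : ∀ F : SimpleGraph (Fin n), F ≤ H →
      1 ≤ ((⊤ : SimpleGraph (Fin n)).copyCount F : ℝ) * q ^ F.edgeSet.ncard)
    (F : SimpleGraph (Fin n)) :
    (H.copyCount F : ℝ) ≤
      ((⊤ : SimpleGraph (Fin n)).copyCount F : ℝ) *
        (min 1 (89 * (D : ℝ) * q)) ^ F.edgeSet.ncard :=
  copies_of_labelled H ⊤ F _ (bounded_degree_labelled H D hD q hq0 hyp F)

theorem min_double_deg_le (D : ℕ) (q : ℝ) :
    min 1 (89 * (D : ℝ) * min 1 (2 * q)) ≤ min 1 (178 * (D : ℝ) * q) := by
  refine le_min (min_le_left _ _) ?_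
  have hD0 : (0 : ℝ) ≤ 89 * (D : ℝ) := by positivity
  have h1 : 89 * (D : ℝ) * min 1 (2 * q) ≤ 89 * (D : ℝ) * (2 * q) :=
    mul_le_mul_of_nonneg_left (min_le_right _ _) hD0
  exact le_trans (min_le_right _ _) (by linarith)

/-- From the half-hypothesis: every `F` has at most as many copies in `H` as expected copies at
density `min 1 (178 * D * q)`. -/
theorem bounded_degree_host {n : ℕ} (H : SimpleGraph (Fin n)) (D : ℕ)
    (hD : ∀ v, (H.neighborSet v).ncard ≤ D) (q : ℝ) (hq0 : 0 ≤ q)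
    (hyp : ∀ F : SimpleGraph (Fin n), F ≤ H →
      1 / 2 ≤ ((⊤ : SimpleGraph (Fin n)).copyCount F : ℝ) * q ^ F.edgeSet.ncard)
    (F : SimpleGraph (Fin n)) :
    (H.copyCount F : ℝ) ≤
      ((⊤ : SimpleGraph (Fin n)).copyCount F : ℝ) *
        (min 1 (178 * (D : ℝ) * q)) ^ F.edgeSet.ncard := by
  have hq'0 : 0 ≤ min 1 (2 * q) := le_min zero_le_one (by positivity)
  have h1 := bounded_degree_copies H D hD (min 1 (2 * q)) hq'0 (hyp_double H q hq0 hyp) F
  exact le_trans h1 (mul_le_mul_of_nonneg_left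
    (pow_le_pow_left₀ (le_min zero_le_one (by positivity)) (min_double_deg_le D q) _)
    (Nat.cast_nonneg _))

/-- The two expectation thresholds of a graph of maximum degree at most `D` differ by at most the
factor `178 * D`. -/
theorem bounded_degree_threshold {n : ℕ} (H : SimpleGraph (Fin n)) (D : ℕ)
    (hD : ∀ v, (H.neighborSet v).ncard ≤ D) :
    fracExpThreshold H ≤ 178 * (D : ℝ) * expThreshold H := by
  have key : ∀ q ∈ {p : ℝ | 0 ≤ p ∧ p ≤ 1 ∧
      ∀ F : SimpleGraph (Fin n), F ≤ H → 1 / 2 ≤ expCopies F p},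
      fracExpThreshold H ≤ 178 * (D : ℝ) * q := by
    intro q hq
    obtain ⟨hq0, -, hq2⟩ := hq
    have hmem : min 1 (178 * (D : ℝ) * q) ∈ {p : ℝ | 0 ≤ p ∧ p ≤ 1 ∧
        ∀ F : SimpleGraph (Fin n), F ≤ H → (H.copyCount F : ℝ) / 2 ≤ expCopies F p} := by
      refine ⟨le_min zero_le_one (by positivity), min_le_left _ _, fun F _ => ?_⟩
      have h1 := bounded_degree_host H D hD q hq0 hq2 F
      have h0 : (0 : ℝ) ≤ (H.copyCount F : ℝ) := Nat.cast_nonneg _
      unfold expCopies
      linarith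
    exact le_trans (csInf_le (bddBelow_frac H) hmem) (min_le_right _ _)
  rcases Nat.eq_zero_or_pos D with hD0 | hDpos
  · subst hD0
    have h1 := key 1 (one_mem_exp H)
    simp only [Nat.cast_zero, mul_zero, zero_mul] at h1 ⊢
    exact h1
  · have hK : (0 : ℝ) < 178 * (D : ℝ) := by
      have : (0 : ℝ) < (D : ℝ) := by exact_mod_cast hDpos
      positivity
    have h5 : fracExpThreshold H / (178 * (D : ℝ)) ≤ expThreshold H := by
      refine le_csInf ⟨1, one_mem_exp H⟩ (fun q hq => ?_)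
      rw [div_le_iff₀ hK]
      have := key q hq
      linarith
    rw [div_le_iff₀ hK] at h5
    linarith

end Vale.Agent.Lib.P064B
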