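import Mathlib

/-!
# P064 (bounded degree hosts): the pieces of a graph

B6 of the package.  The vertex sets of the connected components of `F` with at least two
vertices are pairwise disjoint, induce connected graphs, and every edge of `F` lies in exactly
one of them.
-/

namespace Vale.Agent.Lib.P064B
open SimpleGraph Finset

/-- An edge of an induced graph has an endpoint. -/
theorem exists_mem_map_val {V : Type} (S : Set V) (e : Sym2 S) :
    ∃ a : S, (a : V) ∈ Sym2.map Subtype.val e := by
  induction e using Sym2.ind with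
  | _ a b => exact ⟨a, by simp⟩

/-- If every edge of `F` lies inside one of the pairwise disjoint vertex sets `S i`, then the
edge numbers of the induced graphs add up to the edge number of `F`. -/
theorem edge_sum_of_cover {V : Type} [Fintype V] (F : SimpleGraph V) {ι : Type} [Fintype ι]
    (S : ι → Set V) (hdisj : ∀ i j, i ≠ j → Disjoint (S i) (S j))
    (hcov : ∀ a b, F.Adj a b → ∃ i, a ∈ S i ∧ b ∈ S i) :
    ∑ i, (F.induce (S i)).edgeSet.ncard = F.edgeSet.ncard := by
  classical
  let φ : (Σ i, (F.induce (S i)).edgeSet) → F.edgeSet := fun x =>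
    (SimpleGraph.Embedding.induce (S x.1)).toHom.mapEdgeSet x.2
  have hφ : ∀ x, (φ x : Sym2 V) = Sym2.map Subtype.val (x.2 : Sym2 (S x.1)) := fun x => rfl
  have hinj : Function.Injective φ := by
    rintro ⟨i, e⟩ ⟨j, e'⟩ h
    have h1 : Sym2.map Subtype.val (e : Sym2 (S i)) = Sym2.map Subtype.val (e' : Sym2 (S j)) := by
      have := congrArg (Subtype.val : F.edgeSet → Sym2 V) h
      rwa [hφ, hφ] at this
    have hij : i = j := by
      by_contra hne
      obtain ⟨a, ha⟩ := exists_mem_map_val (S i) (e : Sym2 (S i))
      rw [h1, Sym2.mem_map] at ha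
      obtain ⟨c, _, hc⟩ := ha
      have h2 : (a : V) ∈ S j := by
        rw [← hc]
        exact c.2
      exact Set.disjoint_left.1 (hdisj i j hne) a.2 h2
    subst hij
    have h2 : (e : Sym2 (S i)) = (e' : Sym2 (S i)) :=
      Sym2.map.injective Subtype.val_injective h1
    have h3 : e = e' := Subtype.ext h2
    rw [h3]
  have hsurj : Function.Surjective φ := by
    rintro ⟨e, he⟩
    induction e using Sym2.ind with
    | _ a b =>
      have hab : F.Adj a b := he
      obtain ⟨i, ha, hb⟩ := hcov a b hab
      exact ⟨⟨i, ⟨s(⟨a, ha⟩, ⟨b, hb⟩), hab⟩⟩, rfl⟩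
  have hcard : Nat.card (Σ i, (F.induce (S i)).edgeSet) = Nat.card F.edgeSet :=
    Nat.card_congr (Equiv.ofBijective φ ⟨hinj, hsurj⟩)
  rw [Nat.card_sigma] at hcard
  simp only [Nat.card_coe_set_eq] at hcard
  exact hcard

/-- B6: the components of `F` with at least two vertices, as pairwise disjoint vertex sets
`W i` inducing connected graphs whose edge numbers add up to the edge number of `F`. -/
theorem exists_pieces {V : Type} [Fintype V] [DecidableEq V] (F : SimpleGraph V) :
    ∃ (m : ℕ) (W : Fin m → Finset V),
      (∀ i j, i ≠ j → Disjoint (W i) (W j)) ∧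
      (∀ i, (F.induce (W i : Set V)).Connected) ∧
      (∀ i, 2 ≤ (W i).card) ∧
      ∑ i, (F.induce (W i : Set V)).edgeSet.ncard = F.edgeSet.ncard := by
  classical
  let ι := {C : F.ConnectedComponent // 2 ≤ C.supp.ncard}
  have : Fintype ι := Fintype.ofFinite ι
  let e : ι ≃ Fin (Fintype.card ι) := Fintype.equivFin ι
  let W : Fin (Fintype.card ι) → Finset V := fun k => (Set.toFinite (e.symm k).1.supp).toFinset
  have hcoe : ∀ k, ((W k : Finset V) : Set V) = (e.symm k).1.supp :=
    fun k => Set.Finite.coe_toFinset _
  have hdisj : ∀ i j, i ≠ j → Disjoint (W i) (W j) := by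
    intro i j hij
    rw [← Finset.disjoint_coe, hcoe, hcoe]
    apply pairwise_disjoint_supp_connectedComponent F
    intro h
    exact hij (e.symm.injective (Subtype.ext h))
  refine ⟨Fintype.card ι, W, hdisj, ?_, ?_, ?_⟩
  · intro k
    rw [hcoe k]
    exact (e.symm k).1.connected_toSimpleGraph
  · intro k
    have h1 : (W k).card = ((W k : Finset V) : Set V).ncard := (Set.ncard_coe_finset _).symm
    rw [h1, hcoe k]
    exact (e.symm k).2
  · refine edge_sum_of_cover F (fun k => ((W k : Finset V) : Set V)) ?_ ?_
    · intro i j hij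
      exact Finset.disjoint_coe.2 (hdisj i j hij)
    · intro a b hab
      have hb : b ∈ (F.connectedComponentMk a).supp :=
        (ConnectedComponent.connectedComponentMk_eq_of_adj hab).symm
      have ha : a ∈ (F.connectedComponentMk a).supp := rfl
      have h2 : 2 ≤ (F.connectedComponentMk a).supp.ncard := by
        have : 1 < (F.connectedComponentMk a).supp.ncard :=
          Set.one_lt_ncard_iff_nontrivial.2 ⟨a, ha, b, hb, hab.ne⟩
        exact this
      refine ⟨e ⟨F.connectedComponentMk a, h2⟩, ?_, ?_⟩
      · show a ∈ ((W (e ⟨F.connectedComponentMk a, h2⟩) : Finset V) : Set V)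
        rw [hcoe, Equiv.symm_apply_apply]
        exact ha
      · show b ∈ ((W (e ⟨F.connectedComponentMk a, h2⟩) : Finset V) : Set V)
        rw [hcoe, Equiv.symm_apply_apply]
        exact hb

/-- A connected induced graph on `w` vertices has at least `w - 1` edges. -/
theorem card_le_edges_add_one {V : Type} (F : SimpleGraph V) (W : Finset V)
    (h : (F.induce (W : Set V)).Connected) :
    W.card ≤ (F.induce (W : Set V)).edgeSet.ncard + 1 := by
  have h1 := h.card_vert_le_card_edgeSet_add_one
  rw [Nat.card_coe_set_eq, Nat.card_coe_set_eq, Set.ncard_coe_finset] at h1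
  exact h1

end Vale.Agent.Lib.P064B
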