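import Mathlib

/-!
(B5) of the bounded-degree package for P064: restricting a labelled copy of `F` in `H` to
pairwise disjoint vertex sets `W i` gives labelled copies of the induced graphs `F[W i]`, and
the copy is determined by these restrictions up to at most `(|V| - ∑ |W i|)!` choices.
-/

namespace Vale.Agent.Lib.P064B
open SimpleGraph Finset

/-- The restriction of a labelled copy to a vertex set. -/
def restrictCopy {V : Type} (F H : SimpleGraph V) (s : Set V) (f : Copy F H) :
    Copy (F.induce s) H where
  toHom :=
    { toFun := fun x => f x.1
      map_rel' := fun h => f.toHom.map_adj h }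
  injective' := fun _ _ h => Subtype.ext (f.injective h)

theorem restrictCopy_apply {V : Type} (F H : SimpleGraph V) (s : Set V) (f : Copy F H)
    (x : s) : restrictCopy F H s f x = f x.1 := rfl

/-- B5 (helper2), file `Pieces.lean`: restriction of a labelled copy to pairwise disjoint vertex
sets (the proof of `count_of_separated_gen` with `f ↦ f restricted to W i` as data). -/
theorem count_of_pieces {V : Type} [Fintype V] [DecidableEq V] (F H : SimpleGraph V)
    {ι : Type} [Fintype ι] (W : ι → Finset V) (hdisj : ∀ i j, i ≠ j → Disjoint (W i) (W j)) :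
    H.labelledCopyCount F ≤
      (∏ i, H.labelledCopyCount (F.induce (W i : Set V))) *
        (Fintype.card V - ∑ i, (W i).card).factorial := by
  classical
  set W0 : Finset V := (Finset.univ : Finset ι).biUnion W with hW0
  have hW0card : W0.card = ∑ i, (W i).card := by
    rw [hW0]
    exact Finset.card_biUnion (fun i _ j _ hne => hdisj i j hne)
  let D := ∀ i : ι, Copy (F.induce (W i : Set V)) H
  let Ψ : Copy F H → D := fun f i => restrictCopy F H (W i : Set V) f
  have hagree : ∀ f g : Copy F H, Ψ f = Ψ g → ∀ x ∈ W0, f x = g x := by
    intro f g h x hx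
    rw [hW0, Finset.mem_biUnion] at hx
    obtain ⟨i, -, hx⟩ := hx
    have h1 : restrictCopy F H (W i : Set V) f = restrictCopy F H (W i : Set V) g :=
      congrFun h i
    have h2 := congrArg (fun c : Copy (F.induce (W i : Set V)) H =>
      c ⟨x, Finset.mem_coe.2 hx⟩) h1
    exact h2
  have hfib : ∀ a ∈ (Finset.univ : Finset (Copy F H)).image Ψ,
      ((Finset.univ : Finset (Copy F H)).filter (fun f => Ψ f = a)).card ≤
        (Fintype.card V - W0.card).factorial := by
    intro a ha
    obtain ⟨f0, -, rfl⟩ := Finset.mem_image.1 ha
    have bij : ∀ f : Copy F H, Function.Bijective f := fun f =>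
      Finite.injective_iff_bijective.1 f.injective
    let ef : Copy F H → Equiv.Perm V := fun f => Equiv.ofBijective f (bij f)
    let P := {σ : Equiv.Perm V // ∀ a, ¬ (a ∉ W0) → σ a = a}
    let φ : {f : Copy F H // Ψ f = Ψ f0} → P := fun f =>
      ⟨(ef f.1).trans (ef f0).symm, fun a ha => by
        have ha' : a ∈ W0 := not_not.1 ha
        have h1 : f.1 a = f0 a := hagree f.1 f0 f.2 a ha'
        show (ef f0).symm (f.1 a) = a
        rw [h1]
        exact (ef f0).symm_apply_apply a⟩
    have hφ : Function.Injective φ := by
      intro f g hfg
      have h1 : (ef f.1).trans (ef f0).symm = (ef g.1).trans (ef f0).symm :=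
        congrArg Subtype.val hfg
      apply Subtype.ext
      apply Copy.ext
      intro x
      have h2 := congrArg (fun σ : Equiv.Perm V => σ x) h1
      exact (ef f0).symm.injective h2
    have hP : Fintype.card P = (Fintype.card V - W0.card).factorial := by
      calc Fintype.card P = Fintype.card (Equiv.Perm {a // a ∉ W0}) :=
            Fintype.card_congr (Equiv.Perm.subtypeEquivSubtypePerm (fun a => a ∉ W0)).symm
        _ = (Fintype.card {a // a ∉ W0}).factorial := Fintype.card_perm
        _ = (Fintype.card V - W0.card).factorial := by
            rw [Fintype.card_subtype_compl, Fintype.card_coe]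
    calc ((Finset.univ : Finset (Copy F H)).filter (fun f => Ψ f = Ψ f0)).card
        = Fintype.card {f : Copy F H // Ψ f = Ψ f0} := (Fintype.card_subtype _).symm
      _ ≤ Fintype.card P := Fintype.card_le_of_injective φ hφ
      _ = _ := hP
  have hmain := Finset.card_le_mul_card_image (Finset.univ : Finset (Copy F H)) _ hfib
  have himg : ((Finset.univ : Finset (Copy F H)).image Ψ).card ≤ Fintype.card D :=
    Finset.card_le_univ _
  have hlab : ∀ {U : Type} [Fintype U] (G : SimpleGraph U) (inst : Fintype (Copy G H)),
      H.labelledCopyCount G = @Fintype.card _ inst := by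
    intro U _ G inst
    have e1 : H.labelledCopyCount G = Nat.card (Copy G H) := by
      unfold labelledCopyCount
      exact Fintype.card_eq_nat_card
    rw [e1]
    exact (@Fintype.card_eq_nat_card _ inst).symm
  have hD : Fintype.card D = ∏ i, H.labelledCopyCount (F.induce (W i : Set V)) := by
    rw [Fintype.card_pi]
    exact Finset.prod_congr rfl (fun i _ => (hlab _ _).symm)
  have hcopy : H.labelledCopyCount F = (Finset.univ : Finset (Copy F H)).card := by
    rw [hlab F _, Finset.card_univ]
  rw [hcopy, ← hW0card, ← hD, mul_comm]
  exact hmain.trans (Nat.mul_le_mul_left _ himg)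

end Vale.Agent.Lib.P064B
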