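import Mathlib
import Vale.Agent.Lib.Helper2.P064U
import Vale.Agent.Lib.Helper6.P064Aut

/-!
# P064 (bounded degree): packings of copies

A family `M` of pairwise vertex-disjoint copies of `P` in `H` gives the subgraph `F` of `H` formed
by all their edges.  A copy of `F` in the complete graph is determined by the set of the images of
the members of `M`, a set of `|M|` copies of `P`; so there are at most `N(K_n,P)` choose `|M|`
copies of `F`, and the unit hypothesis for `F` bounds `|M|`.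
-/

namespace Vale.Agent.Lib.P064B
open SimpleGraph Finset

variable {U : Type} {n : ℕ}

/-- the graph formed by the edges of the members of a family of subgraphs -/
def packGraph (H : SimpleGraph (Fin n)) (M : Finset H.Subgraph) : SimpleGraph (Fin n) where
  Adj x y := ∃ G' ∈ M, G'.Adj x y
  symm := ⟨fun _ _ h => by
    obtain ⟨G', hG', h⟩ := h
    exact ⟨G', hG', h.symm⟩⟩
  loopless := ⟨fun x h => by
    obtain ⟨G', _, h⟩ := h
    exact H.loopless.irrefl x (G'.adj_sub h)⟩

theorem packGraph_adj (H : SimpleGraph (Fin n)) (M : Finset H.Subgraph) (x y : Fin n) :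
    (packGraph H M).Adj x y ↔ ∃ G' ∈ M, G'.Adj x y := Iff.rfl

theorem packGraph_le (H : SimpleGraph (Fin n)) (M : Finset H.Subgraph) : packGraph H M ≤ H := by
  intro x y h
  obtain ⟨G', _, h⟩ := h
  exact G'.adj_sub h

/-- adjacency in a subgraph isomorphic to `P`, through the isomorphism -/
theorem packMember_adj_iff (P : SimpleGraph U) {H : SimpleGraph (Fin n)} (G' : H.Subgraph)
    (e : P ≃g G'.coe) (x y : Fin n) :
    G'.Adj x y ↔ ∃ p p', P.Adj p p' ∧ ((e p : G'.verts) : Fin n) = x ∧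
      ((e p' : G'.verts) : Fin n) = y := by
  constructor
  · intro h
    have hx : x ∈ G'.verts := G'.edge_vert h
    have hy : y ∈ G'.verts := G'.edge_vert h.symm
    refine ⟨e.symm ⟨x, hx⟩, e.symm ⟨y, hy⟩, ?_, ?_, ?_⟩
    · rw [← e.map_rel_iff, RelIso.apply_symm_apply, RelIso.apply_symm_apply]
      exact h
    · rw [RelIso.apply_symm_apply]
    · rw [RelIso.apply_symm_apply]
  · rintro ⟨p, p', h, rfl, rfl⟩
    exact e.map_rel_iff.2 h

/-- a copy of `F` in the complete graph, composed with an isomorphism from `P` onto a subgraph -/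
def packLift (P : SimpleGraph U) {H : SimpleGraph (Fin n)} {F : SimpleGraph (Fin n)}
    (c : Copy F (⊤ : SimpleGraph (Fin n))) (G' : H.Subgraph) (e : P ≃g G'.coe) :
    Copy P (⊤ : SimpleGraph (Fin n)) :=
  ⟨⟨fun p => c ((e p : G'.verts) : Fin n), fun {p p'} h => by
    rw [SimpleGraph.top_adj]
    intro h'
    have h1 : ((e p : G'.verts) : Fin n) = ((e p' : G'.verts) : Fin n) := c.injective h'
    exact P.ne_of_adj h (e.injective (Subtype.ext h1))⟩,
    fun p p' h' => e.injective (Subtype.ext (c.injective h'))⟩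

theorem packLift_apply (P : SimpleGraph U) {H : SimpleGraph (Fin n)} {F : SimpleGraph (Fin n)}
    (c : Copy F (⊤ : SimpleGraph (Fin n))) (G' : H.Subgraph) (e : P ≃g G'.coe) (p : U) :
    packLift P c G' e p = c ((e p : G'.verts) : Fin n) := rfl

/-- the images of the members of `M` under a copy of the union graph -/
noncomputable def packParts (P : SimpleGraph U) {H : SimpleGraph (Fin n)} (M : Finset H.Subgraph)
    (hM : ∀ G' ∈ M, Nonempty (P ≃g G'.coe))
    (c : Copy (packGraph H M) (⊤ : SimpleGraph (Fin n))) :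
    Finset (⊤ : SimpleGraph (Fin n)).Subgraph :=
  open Classical in
  M.attach.image (fun G' => (packLift P c G'.1 (Classical.choice (hM G'.1 G'.2))).toSubgraph)

theorem mem_packParts (P : SimpleGraph U) {H : SimpleGraph (Fin n)} (M : Finset H.Subgraph)
    (hM : ∀ G' ∈ M, Nonempty (P ≃g G'.coe))
    (c : Copy (packGraph H M) (⊤ : SimpleGraph (Fin n)))
    (T : (⊤ : SimpleGraph (Fin n)).Subgraph) :
    T ∈ packParts P M hM c ↔ ∃ (G' : H.Subgraph) (hG' : G' ∈ M),
      (packLift P c G' (Classical.choice (hM G' hG'))).toSubgraph = T := by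
  classical
  unfold packParts
  rw [Finset.mem_image]
  constructor
  · rintro ⟨G', _, h⟩
    exact ⟨G'.1, G'.2, h⟩
  · rintro ⟨G', hG', h⟩
    exact ⟨⟨G', hG'⟩, Finset.mem_attach _ _, h⟩

/-- the spanning subgraph of the complete graph formed by the edges of a family of subgraphs -/
def packGlue (S : Finset (⊤ : SimpleGraph (Fin n)).Subgraph) : (⊤ : SimpleGraph (Fin n)).Subgraph where
  verts := Set.univ
  Adj a b := ∃ T ∈ S, T.Adj a b
  adj_sub := fun h => by
    obtain ⟨T, _, h⟩ := h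
    exact T.adj_sub h
  edge_vert := fun _ => Set.mem_univ _
  symm := ⟨fun _ _ h => by
    obtain ⟨T, hT, h⟩ := h
    exact ⟨T, hT, h.symm⟩⟩

/-- a copy of the union graph is recovered from the images of the members -/
theorem packGlue_packParts (P : SimpleGraph U) {H : SimpleGraph (Fin n)} (M : Finset H.Subgraph)
    (hM : ∀ G' ∈ M, Nonempty (P ≃g G'.coe))
    (c : Copy (packGraph H M) (⊤ : SimpleGraph (Fin n))) :
    packGlue (packParts P M hM c) = c.toSubgraph := by
  apply Subgraph.ext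
  · show Set.univ = c.toSubgraph.verts
    rw [Helper6.P064Aut.toSubgraph_verts]
    exact (Set.range_eq_univ.2 (Finite.injective_iff_surjective.1 c.injective)).symm
  · ext a b
    show (∃ T ∈ packParts P M hM c, T.Adj a b) ↔ c.toSubgraph.Adj a b
    rw [Helper6.P064Aut.toSubgraph_adj_iff]
    constructor
    · rintro ⟨T, hT, h⟩
      obtain ⟨G', hG', rfl⟩ := (mem_packParts P M hM c T).1 hT
      rw [Helper6.P064Aut.toSubgraph_adj_iff] at h
      obtain ⟨p, p', hp, rfl, rfl⟩ := h
      exact ⟨_, _, ⟨G', hG', (packMember_adj_iff P G' (Classical.choice (hM G' hG')) _ _).2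
        ⟨p, p', hp, rfl, rfl⟩⟩, rfl, rfl⟩
    · rintro ⟨x, y, ⟨G', hG', h⟩, rfl, rfl⟩
      obtain ⟨p, p', hp, rfl, rfl⟩ :=
        (packMember_adj_iff P G' (Classical.choice (hM G' hG')) x y).1 h
      refine ⟨(packLift P c G' (Classical.choice (hM G' hG'))).toSubgraph,
        (mem_packParts P M hM c _).2 ⟨G', hG', rfl⟩, ?_⟩
      rw [Helper6.P064Aut.toSubgraph_adj_iff]
      exact ⟨p, p', hp, rfl, rfl⟩

theorem card_packParts [Nonempty U] (P : SimpleGraph U) {H : SimpleGraph (Fin n)}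
    (M : Finset H.Subgraph) (hM : ∀ G' ∈ M, Nonempty (P ≃g G'.coe))
    (hdisj : ∀ G₁ ∈ M, ∀ G₂ ∈ M, G₁ ≠ G₂ → Disjoint G₁.verts G₂.verts)
    (c : Copy (packGraph H M) (⊤ : SimpleGraph (Fin n))) :
    (packParts P M hM c).card = M.card := by
  classical
  unfold packParts
  rw [Finset.card_image_of_injective, Finset.card_attach]
  intro G1 G2 h
  have hv : (packLift P c G1.1 (Classical.choice (hM G1.1 G1.2))).toSubgraph.verts =
      (packLift P c G2.1 (Classical.choice (hM G2.1 G2.2))).toSubgraph.verts :=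
    congrArg Subgraph.verts h
  rw [Helper6.P064Aut.toSubgraph_verts, Helper6.P064Aut.toSubgraph_verts] at hv
  by_contra hne
  have hne' : G1.1 ≠ G2.1 := fun h' => hne (Subtype.ext h')
  have hd := hdisj G1.1 G1.2 G2.1 G2.2 hne'
  obtain ⟨p0⟩ := ‹Nonempty U›
  have h1 : packLift P c G1.1 (Classical.choice (hM G1.1 G1.2)) p0 ∈
      Set.range (packLift P c G2.1 (Classical.choice (hM G2.1 G2.2))) := by
    rw [← hv]
    exact Set.mem_range_self p0
  obtain ⟨p', hp'⟩ := h1
  rw [packLift_apply, packLift_apply] at hp'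
  have h2 := c.injective hp'
  have h3 : ((Classical.choice (hM G1.1 G1.2) p0 : G1.1.verts) : Fin n) ∈ G2.1.verts := by
    rw [← h2]
    exact (Classical.choice (hM G2.1 G2.2) p').2
  exact Set.disjoint_left.1 hd (Classical.choice (hM G1.1 G1.2) p0).2 h3

/-- the copies of the union graph are at most the sets of `|M|` copies of `P` -/
theorem copyCount_packGraph_le [Fintype U] [Nonempty U] (P : SimpleGraph U) {H : SimpleGraph (Fin n)}
    (M : Finset H.Subgraph) (hM : ∀ G' ∈ M, Nonempty (P ≃g G'.coe))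
    (hdisj : ∀ G₁ ∈ M, ∀ G₂ ∈ M, G₁ ≠ G₂ → Disjoint G₁.verts G₂.verts) :
    (⊤ : SimpleGraph (Fin n)).copyCount (packGraph H M) ≤
      ((⊤ : SimpleGraph (Fin n)).copyCount P).choose M.card := by
  classical
  rw [copyCount_eq_card_image_copyToSubgraph, copyCount_eq_card_image_copyToSubgraph,
    ← Finset.card_powersetCard]
  have h1 : (Finset.univ.image
      (Copy.toSubgraph : Copy (packGraph H M) (⊤ : SimpleGraph (Fin n)) → _)) =
      (Finset.univ.image (packParts P M hM)).image packGlue := by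
    rw [Finset.image_image]
    exact Finset.image_congr (fun c _ => (packGlue_packParts P M hM c).symm)
  rw [h1]
  refine le_trans Finset.card_image_le ?_
  apply Finset.card_le_card
  intro S hS
  rw [Finset.mem_image] at hS
  obtain ⟨c, _, rfl⟩ := hS
  rw [Finset.mem_powersetCard]
  refine ⟨?_, card_packParts P M hM hdisj c⟩
  intro T hT
  obtain ⟨G', hG', rfl⟩ := (mem_packParts P M hM c T).1 hT
  exact Finset.mem_image_of_mem _ (Finset.mem_univ _)

/-- the union graph has at least `|M|` times as many edges as `P` -/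
theorem edges_packGraph_ge [Fintype U] (P : SimpleGraph U) {H : SimpleGraph (Fin n)}
    (M : Finset H.Subgraph) (hM : ∀ G' ∈ M, Nonempty (P ≃g G'.coe))
    (hdisj : ∀ G₁ ∈ M, ∀ G₂ ∈ M, G₁ ≠ G₂ → Disjoint G₁.verts G₂.verts) :
    M.card * P.edgeSet.ncard ≤ (packGraph H M).edgeSet.ncard := by
  classical
  let f : {G' // G' ∈ M} → U → Fin n :=
    fun G' p => ((Classical.choice (hM G'.1 G'.2) p : G'.1.verts) : Fin n)
  have hf : ∀ G', Function.Injective (f G') :=
    fun G' p p' h => (Classical.choice (hM G'.1 G'.2)).injective (Subtype.ext h)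
  let E : {G' // G' ∈ M} → Finset (Sym2 (Fin n)) :=
    fun G' => P.edgeFinset.image (Sym2.map (f G'))
  have hE1 : ∀ G', (E G').card = P.edgeSet.ncard := by
    intro G'
    rw [Finset.card_image_of_injective _ (Sym2.map.injective (hf G')), ← Set.ncard_coe_finset,
      SimpleGraph.coe_edgeFinset]
  have hmemE : ∀ G' s, s ∈ E G' →
      s ∈ (packGraph H M).edgeSet ∧ ∀ x ∈ s, x ∈ G'.1.verts := by
    intro G' s hs
    rw [Finset.mem_image] at hs
    obtain ⟨t, ht, rfl⟩ := hs
    induction t using Sym2.ind with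
    | _ p p' =>
      rw [SimpleGraph.mem_edgeFinset, SimpleGraph.mem_edgeSet] at ht
      rw [Sym2.map_mk]
      constructor
      · rw [SimpleGraph.mem_edgeSet]
        exact ⟨G'.1, G'.2, (Classical.choice (hM G'.1 G'.2)).map_rel_iff.2 ht⟩
      · intro x hx
        rw [Sym2.mem_iff] at hx
        rcases hx with rfl | rfl
        · exact (Classical.choice (hM G'.1 G'.2) p).2
        · exact (Classical.choice (hM G'.1 G'.2) p').2
  have hdisjE : ((M.attach : Finset {G' // G' ∈ M}) : Set {G' // G' ∈ M}).PairwiseDisjoint E := by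
    intro G1 _ G2 _ hne
    show Disjoint (E G1) (E G2)
    rw [Finset.disjoint_left]
    intro s hs1 hs2
    have hne' : G1.1 ≠ G2.1 := fun h' => hne (Subtype.ext h')
    have hd := hdisj G1.1 G1.2 G2.1 G2.2 hne'
    obtain ⟨x, hx⟩ : ∃ x, x ∈ s := by
      induction s using Sym2.ind with
      | _ a b => exact ⟨a, Sym2.mem_mk_left a b⟩
    exact Set.disjoint_left.1 hd ((hmemE G1 s hs1).2 x hx) ((hmemE G2 s hs2).2 x hx)
  calc M.card * P.edgeSet.ncard = ∑ G' ∈ M.attach, (E G').card := by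
        rw [Finset.sum_congr rfl (fun G' _ => hE1 G'), Finset.sum_const, Finset.card_attach,
          smul_eq_mul]
    _ = (M.attach.biUnion E).card := (Finset.card_biUnion hdisjE).symm
    _ = ((M.attach.biUnion E : Finset (Sym2 (Fin n))) : Set (Sym2 (Fin n))).ncard :=
        (Set.ncard_coe_finset _).symm
    _ ≤ (packGraph H M).edgeSet.ncard := by
        apply Set.ncard_le_ncard _ (Set.toFinite _)
        intro s hs
        rw [Finset.mem_coe, Finset.mem_biUnion] at hs
        obtain ⟨G', _, hs⟩ := hs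
        exact (hmemE G' s hs).1

/-- B3: a family of pairwise vertex-disjoint copies of `P` in `H` has at most
`3 N(K_n,P) q^e(P)` members. -/
theorem packing_le {U : Type} [Fintype U] [Nonempty U] {n : ℕ} (P : SimpleGraph U)
    (H : SimpleGraph (Fin n)) (q : ℝ) (hq0 : 0 ≤ q) (hq1 : q ≤ 1)
    (hyp : ∀ F : SimpleGraph (Fin n), F ≤ H →
      1 ≤ ((⊤ : SimpleGraph (Fin n)).copyCount F : ℝ) * q ^ F.edgeSet.ncard)
    (M : Finset H.Subgraph) (hM : ∀ G' ∈ M, Nonempty (P ≃g G'.coe))
    (hdisj : ∀ G₁ ∈ M, ∀ G₂ ∈ M, G₁ ≠ G₂ → Disjoint G₁.verts G₂.verts) :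
    (M.card : ℝ) ≤ 3 * ((⊤ : SimpleGraph (Fin n)).copyCount P : ℝ) * q ^ P.edgeSet.ncard := by
  set m := M.card with hm
  set N := (⊤ : SimpleGraph (Fin n)).copyCount P with hN
  set eP := P.edgeSet.ncard with heP
  have hx0 : (0 : ℝ) ≤ (N : ℝ) * q ^ eP := mul_nonneg (Nat.cast_nonneg _) (pow_nonneg hq0 _)
  rcases Nat.eq_zero_or_pos m with hm0 | hmpos
  · rw [hm0, Nat.cast_zero]
    linarith
  have h1 := hyp (packGraph H M) (packGraph_le H M)
  have h2 : (((⊤ : SimpleGraph (Fin n)).copyCount (packGraph H M) : ℕ) : ℝ) ≤ (N.choose m : ℝ) := by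
    exact_mod_cast copyCount_packGraph_le P M hM hdisj
  have h3 : q ^ (packGraph H M).edgeSet.ncard ≤ q ^ (m * eP) :=
    pow_le_pow_of_le_one hq0 hq1 (edges_packGraph_ge P M hM hdisj)
  have h4 : (N.choose m : ℝ) ≤ (N : ℝ) ^ m / (m.factorial : ℝ) := Nat.choose_le_pow_div m N
  have hfpos : (0 : ℝ) < (m.factorial : ℝ) := by exact_mod_cast Nat.factorial_pos m
  have h5 : (m.factorial : ℝ) ≤ ((N : ℝ) * q ^ eP) ^ m := by
    have h6 : (1 : ℝ) ≤ (N : ℝ) ^ m / (m.factorial : ℝ) * q ^ (m * eP) := by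
      calc (1 : ℝ) ≤ _ := h1
        _ ≤ (N.choose m : ℝ) * q ^ (packGraph H M).edgeSet.ncard :=
            mul_le_mul_of_nonneg_right h2 (pow_nonneg hq0 _)
        _ ≤ (N.choose m : ℝ) * q ^ (m * eP) :=
            mul_le_mul_of_nonneg_left h3 (Nat.cast_nonneg _)
        _ ≤ (N : ℝ) ^ m / (m.factorial : ℝ) * q ^ (m * eP) :=
            mul_le_mul_of_nonneg_right h4 (pow_nonneg hq0 _)
    have h7 : (N : ℝ) ^ m / (m.factorial : ℝ) * q ^ (m * eP) =
        ((N : ℝ) * q ^ eP) ^ m / (m.factorial : ℝ) := by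
      rw [mul_pow, ← pow_mul, mul_comm eP m]
      ring
    rw [h7, le_div_iff₀ hfpos] at h6
    linarith
  have h8 : (m : ℝ) ^ m ≤ Real.exp m * (m.factorial : ℝ) := by
    have := Vale.Agent.Lib.Helper2.P064U.pow_le_exp_mul_descFactorial m m le_rfl
    rwa [Nat.descFactorial_self] at this
  have h9 : (m : ℝ) ^ m ≤ (Real.exp 1 * ((N : ℝ) * q ^ eP)) ^ m := by
    calc (m : ℝ) ^ m ≤ Real.exp m * (m.factorial : ℝ) := h8
      _ ≤ Real.exp m * ((N : ℝ) * q ^ eP) ^ m :=
          mul_le_mul_of_nonneg_left h5 (Real.exp_pos _).le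
      _ = (Real.exp 1 * ((N : ℝ) * q ^ eP)) ^ m := by
          have hexp : Real.exp (m : ℝ) = Real.exp 1 ^ m := by
            rw [← Real.exp_nat_mul, mul_one]
          rw [hexp, ← mul_pow]
  have h10 : (m : ℝ) ≤ Real.exp 1 * ((N : ℝ) * q ^ eP) :=
    (pow_le_pow_iff_left₀ (Nat.cast_nonneg _) (mul_nonneg (Real.exp_pos _).le hx0)
      (Nat.pos_iff_ne_zero.1 hmpos)).1 h9
  have h11 : Real.exp 1 * ((N : ℝ) * q ^ eP) ≤ 3 * ((N : ℝ) * q ^ eP) :=
    mul_le_mul_of_nonneg_right Real.exp_one_lt_three.le hx0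
  linarith

end Vale.Agent.Lib.P064B
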