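import Vale.Agent.Lib.P064B.Rooted

/-!
P064 (hosts of bounded degree): the number of copies of a connected graph through a given vertex.
-/

namespace Vale.Agent.Lib.P064B
open SimpleGraph Finset

/-- The labelled copy given by an isomorphism onto a subgraph. -/
def copyOfIso {U : Type} {n : ℕ} {P : SimpleGraph U} {H : SimpleGraph (Fin n)}
    (G' : H.Subgraph) (e : P ≃g G'.coe) : Copy P H :=
  ⟨⟨fun a => ((e a : G'.verts) : Fin n), fun {a b} hab => by
      have h1 : G'.coe.Adj (e a) (e b) := e.map_rel_iff.mpr hab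
      exact G'.adj_sub h1⟩,
    fun a b hab => e.injective (Subtype.ext hab)⟩

theorem copyOfIso_apply {U : Type} {n : ℕ} {P : SimpleGraph U} {H : SimpleGraph (Fin n)}
    (G' : H.Subgraph) (e : P ≃g G'.coe) (a : U) :
    copyOfIso G' e a = ((e a : G'.verts) : Fin n) := rfl

/-- The subgraph is determined by the labelled copy. -/
theorem subgraph_of_copyOfIso {U : Type} {n : ℕ} {P : SimpleGraph U} {H : SimpleGraph (Fin n)}
    (G₁ G₂ : H.Subgraph) (e₁ : P ≃g G₁.coe) (e₂ : P ≃g G₂.coe)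
    (h : copyOfIso G₁ e₁ = copyOfIso G₂ e₂) : G₁ = G₂ := by
  have key : ∀ (G' : H.Subgraph) (e : P ≃g G'.coe),
      (∀ v, v ∈ G'.verts ↔ ∃ a, copyOfIso G' e a = v) ∧
      (∀ v w, G'.Adj v w ↔ ∃ a b, P.Adj a b ∧ copyOfIso G' e a = v ∧ copyOfIso G' e b = w) := by
    intro G' e
    refine ⟨fun v => ⟨fun hv => ⟨e.symm ⟨v, hv⟩, ?_⟩, ?_⟩, fun v w => ⟨fun hvw => ?_, ?_⟩⟩
    · rw [copyOfIso_apply]
      simp
    · rintro ⟨a, rfl⟩
      rw [copyOfIso_apply]
      exact (e a).2
    · have hv : v ∈ G'.verts := G'.edge_vert hvw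
      have hw : w ∈ G'.verts := G'.edge_vert hvw.symm
      refine ⟨e.symm ⟨v, hv⟩, e.symm ⟨w, hw⟩, ?_, ?_, ?_⟩
      · rw [e.symm.map_rel_iff]
        exact hvw
      · rw [copyOfIso_apply]
        simp
      · rw [copyOfIso_apply]
        simp
    · rintro ⟨a, b, hab, rfl, rfl⟩
      have h1 : G'.coe.Adj (e a) (e b) := e.map_rel_iff.mpr hab
      exact h1
  obtain ⟨hv1, ha1⟩ := key G₁ e₁
  obtain ⟨hv2, ha2⟩ := key G₂ e₂
  apply Subgraph.ext
  · ext v
    rw [hv1, hv2, h]
  · ext v w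
    rw [ha1, ha2, h]

/-- B2: copies (as subgraphs) of a connected graph through a given vertex, in a host of maximum
degree at most `D`. -/
theorem copies_through_le {U : Type} [Fintype U] {n : ℕ} (P : SimpleGraph U) (hP : P.Connected)
    (H : SimpleGraph (Fin n)) (D : ℕ) (hD : ∀ v, (H.neighborSet v).ncard ≤ D) (x : Fin n) :
    Nat.card {G' : H.Subgraph // Nonempty (P ≃g G'.coe) ∧ x ∈ G'.verts} ≤
      Fintype.card U * D ^ (Fintype.card U - 1) := by
  classical
  have hfinC : Finite (Copy P H) :=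
    Finite.of_injective (fun f : Copy P H => (⇑f : U → Fin n)) DFunLike.coe_injective
  let Φ : {G' : H.Subgraph // Nonempty (P ≃g G'.coe) ∧ x ∈ G'.verts} →
      (Σ u : U, {f : Copy P H // f u = x}) := fun G =>
    ⟨(Classical.choice G.2.1).symm ⟨x, G.2.2⟩,
      ⟨copyOfIso G.1 (Classical.choice G.2.1), by
        rw [copyOfIso_apply]
        simp⟩⟩
  have hΦ : Function.Injective Φ := by
    intro G₁ G₂ h
    apply Subtype.ext
    have h2 : copyOfIso G₁.1 (Classical.choice G₁.2.1) = copyOfIso G₂.1 (Classical.choice G₂.2.1) := by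
      have h3 := congrArg (fun s : (Σ u : U, {f : Copy P H // f u = x}) => (s.2 : Copy P H)) h
      exact h3
    exact subgraph_of_copyOfIso _ _ _ _ h2
  have h1 := Nat.card_le_card_of_injective Φ hΦ
  refine h1.trans ?_
  rw [Nat.card_sigma]
  calc ∑ u : U, Nat.card {f : Copy P H // f u = x}
      ≤ ∑ _u : U, D ^ (Fintype.card U - 1) :=
        Finset.sum_le_sum (fun u _ => rooted_copies_le P hP H D hD u x)
    _ = Fintype.card U * D ^ (Fintype.card U - 1) := by
        rw [Finset.sum_const, Finset.card_univ, smul_eq_mul]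

end Vale.Agent.Lib.P064B
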