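import Mathlib
import Vale.Agent.Lib.Helper7.P064M
import Vale.Agent.Lib.P064B.Through
import Vale.Agent.Lib.P064B.Packing

/-!
(B4) of the bounded-degree package for P064: labelled copies of a connected graph `P` in a host
`H` of maximum degree at most `D`, under the unit hypothesis.  A maximal family `M` of pairwise
vertex-disjoint copies has at most `3 N(K_n,P) q^e(P)` members (B3), every copy meets a member
of `M`, and at most `|U| D^(|U|-1)` copies pass through a given vertex (B2).
-/

namespace Vale.Agent.Lib.P064B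
open SimpleGraph Finset

/-- The number of copies as the cardinality of a set of subgraphs (no decidability data). -/
theorem copyCount_eq_ncard {V W : Type*} [Fintype V] (G : SimpleGraph V) (F : SimpleGraph W) :
    G.copyCount F = Set.ncard {G' : G.Subgraph | Nonempty (F ≃g G'.coe)} := by
  rw [copyCount, ← Set.ncard_coe_finset]
  congr 1
  ext G'
  simp

/-- B4: labelled copies of a connected piece. -/
theorem piece_le {U : Type} [Fintype U] {n : ℕ} (P : SimpleGraph U) (hP : P.Connected)
    (H : SimpleGraph (Fin n)) (D : ℕ) (hD : ∀ v, (H.neighborSet v).ncard ≤ D)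
    (q : ℝ) (hq0 : 0 ≤ q) (hq1 : q ≤ 1)
    (hyp : ∀ F : SimpleGraph (Fin n), F ≤ H →
      1 ≤ ((⊤ : SimpleGraph (Fin n)).copyCount F : ℝ) * q ^ F.edgeSet.ncard) :
    (H.labelledCopyCount P : ℝ) ≤
      3 * (Fintype.card U : ℝ) ^ 2 * (D : ℝ) ^ (Fintype.card U - 1) *
        (n.descFactorial (Fintype.card U) : ℝ) * q ^ P.edgeSet.ncard := by
  classical
  have hne : Nonempty U := hP.nonempty
  set k := Fintype.card U with hk
  have hkpos : 0 < k := Fintype.card_pos
  let S : Finset H.Subgraph := Finset.univ.filter (fun G' => Nonempty (P ≃g G'.coe))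
  have hScard : H.copyCount P = S.card := by
    rw [copyCount_eq_ncard, ← Set.ncard_coe_finset]
    congr 1
    ext G'
    simp [S]
  have hverts : ∀ G' ∈ S, G'.verts.ncard = k := by
    intro G' hG'
    obtain ⟨e⟩ := (Finset.mem_filter.mp hG').2
    rw [← Nat.card_coe_set_eq, hk, ← Nat.card_eq_fintype_card]
    exact (Nat.card_congr e.toEquiv).symm
  let A : Finset (Finset H.Subgraph) := S.powerset.filter
    (fun M => ∀ G₁ ∈ M, ∀ G₂ ∈ M, G₁ ≠ G₂ → Disjoint G₁.verts G₂.verts)
  have hA : A.Nonempty := ⟨∅, by simp [A]⟩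
  obtain ⟨M, hMA, hMmax⟩ := Finset.exists_max_image A Finset.card hA
  have hMS : M ⊆ S := Finset.mem_powerset.mp (Finset.mem_filter.mp hMA).1
  have hMdisj := (Finset.mem_filter.mp hMA).2
  have hmeet : ∀ G' ∈ S, ∃ G₁ ∈ M, ¬ Disjoint G'.verts G₁.verts := by
    intro G' hG'
    by_contra hcon0
    have hcon : ∀ G₁ ∈ M, Disjoint G'.verts G₁.verts := fun G₁ h =>
      by_contra (fun hd => hcon0 ⟨G₁, h, hd⟩)
    have hG'M : G' ∉ M := by
      intro hmem
      have h0 := hcon G' hmem
      rw [disjoint_self, Set.bot_eq_empty] at h0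
      have hc := hverts G' hG'
      rw [h0, Set.ncard_empty] at hc
      omega
    have hins : insert G' M ∈ A := by
      simp only [A, Finset.mem_filter, Finset.mem_powerset]
      refine ⟨Finset.insert_subset hG' hMS, ?_⟩
      intro G₁ h1 G₂ h2 hne
      rcases Finset.mem_insert.mp h1 with e1 | h1'
      · rcases Finset.mem_insert.mp h2 with e2 | h2'
        · exact absurd (e1.trans e2.symm) hne
        · rw [e1]
          exact hcon G₂ h2'
      · rcases Finset.mem_insert.mp h2 with e2 | h2'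
        · rw [e2]
          exact (hcon G₁ h1').symm
        · exact hMdisj G₁ h1' G₂ h2' hne
    have h1 := hMmax _ hins
    rw [Finset.card_insert_of_notMem hG'M] at h1
    omega
  let X : Finset (Fin n) := M.biUnion (fun G' => Finset.univ.filter (fun x => x ∈ G'.verts))
  have hX : X.card ≤ M.card * k := by
    refine (Finset.card_biUnion_le).trans ?_
    rw [← smul_eq_mul, ← Finset.sum_const]
    refine Finset.sum_le_sum (fun G' hG' => le_of_eq ?_)
    rw [← hverts G' (hMS hG'), Set.ncard_eq_toFinset_card']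
    congr 1
    ext x
    simp
  have hcover : S ⊆ X.biUnion (fun x => S.filter (fun G' => x ∈ G'.verts)) := by
    intro G' hG'
    obtain ⟨G₁, hG₁, hnd⟩ := hmeet G' hG'
    rw [Set.not_disjoint_iff] at hnd
    obtain ⟨x, hx1, hx2⟩ := hnd
    simp only [Finset.mem_biUnion, Finset.mem_filter, X, Finset.mem_univ, true_and]
    exact ⟨x, ⟨G₁, hG₁, hx2⟩, hG', hx1⟩
  have hthrough : ∀ x, (S.filter (fun G' => x ∈ G'.verts)).card ≤ k * D ^ (k - 1) := by
    intro x
    have h1 := copies_through_le P hP H D hD x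
    rw [Nat.card_eq_fintype_card, Fintype.card_subtype] at h1
    refine le_trans (le_of_eq ?_) h1
    rw [Finset.filter_filter]
  have hS1 : S.card ≤ M.card * k * (k * D ^ (k - 1)) := by
    calc S.card ≤ (X.biUnion fun x => S.filter (fun G' => x ∈ G'.verts)).card :=
          Finset.card_le_card hcover
      _ ≤ ∑ x ∈ X, (S.filter (fun G' => x ∈ G'.verts)).card := Finset.card_biUnion_le
      _ ≤ ∑ x ∈ X, k * D ^ (k - 1) := Finset.sum_le_sum (fun x _ => hthrough x)
      _ = X.card * (k * D ^ (k - 1)) := by rw [Finset.sum_const, smul_eq_mul]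
      _ ≤ M.card * k * (k * D ^ (k - 1)) := Nat.mul_le_mul_right _ hX
  have hpack := packing_le P H q hq0 hq1 hyp M
    (fun G' hG' => (Finset.mem_filter.mp (hMS hG')).2) hMdisj
  have hlab := Vale.Agent.Lib.Helper7.P064M.labelled_eq_copyCount_mul_aut H P
  have hlabtop :=
    Vale.Agent.Lib.Helper7.P064M.labelled_eq_copyCount_mul_aut (⊤ : SimpleGraph (Fin n)) P
  have htop := Vale.Agent.Lib.Helper7.P064M.labelled_top (V := Fin n) P
  rw [Fintype.card_fin] at htop
  have hdesc : (n.descFactorial k : ℝ) =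
      ((⊤ : SimpleGraph (Fin n)).copyCount P : ℝ) * (Nat.card (P ≃g P) : ℝ) := by
    rw [← htop, hlabtop]
    push_cast
    ring
  rw [hlab, hScard, hdesc]
  push_cast
  have h1 : (S.card : ℝ) ≤ (M.card : ℝ) * k * (k * (D : ℝ) ^ (k - 1)) := by
    exact_mod_cast hS1
  have haut : (0 : ℝ) ≤ (Nat.card (P ≃g P) : ℝ) := Nat.cast_nonneg _
  calc (S.card : ℝ) * (Nat.card (P ≃g P) : ℝ)
      ≤ ((M.card : ℝ) * k * (k * (D : ℝ) ^ (k - 1))) * (Nat.card (P ≃g P) : ℝ) :=
        mul_le_mul_of_nonneg_right h1 haut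
    _ = (M.card : ℝ) * ((k : ℝ) * (k * (D : ℝ) ^ (k - 1)) * (Nat.card (P ≃g P) : ℝ)) := by ring
    _ ≤ (3 * ((⊤ : SimpleGraph (Fin n)).copyCount P : ℝ) * q ^ P.edgeSet.ncard) *
          ((k : ℝ) * (k * (D : ℝ) ^ (k - 1)) * (Nat.card (P ≃g P) : ℝ)) :=
        mul_le_mul_of_nonneg_right hpack (by positivity)
    _ = _ := by ring

end Vale.Agent.Lib.P064B
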