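import Vale.Agent.Lib.Helper7.P064G
import Vale.Agent.Lib.P064B.Pieces
import Vale.Agent.Lib.P064B.Components
import Vale.Agent.Lib.P064B.Piece

/-!
P064, hosts of bounded maximum degree: the labelled counting inequality for every graph `F`
(assembly of the piece bound, the restriction to the components with at least two vertices, and
the arithmetic).
-/

namespace Vale.Agent.Lib.P064B
open SimpleGraph Finset
open Vale.Agent.Lib.Helper7.P064M

theorem three_sq_le (w : ℕ) (hw : 2 ≤ w) : 3 * w ^ 2 ≤ 12 ^ (w - 1) := by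
  induction w, hw using Nat.le_induction with
  | base => norm_num
  | succ w hw ih =>
    have e : w + 1 - 1 = (w - 1) + 1 := by omega
    rw [e, pow_succ]
    calc 3 * (w + 1) ^ 2 ≤ 12 * (3 * w ^ 2) := by nlinarith
      _ ≤ 12 * 12 ^ (w - 1) := Nat.mul_le_mul_left _ ih
      _ = 12 ^ (w - 1) * 12 := by ring

theorem exp_two_mul_twelve : Real.exp 1 ^ 2 * 12 ≤ 89 := by
  have h1 := Real.exp_one_lt_d9
  have h0 := Real.exp_pos 1
  nlinarith

/-- A connected piece with at least two vertices, host of maximum degree between `1` and `D`. -/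
theorem piece_bound {U : Type} [Fintype U] {n : ℕ} (P : SimpleGraph U) (hP : P.Connected)
    (hU : 2 ≤ Fintype.card U)
    (H : SimpleGraph (Fin n)) (D : ℕ) (hD : ∀ v, (H.neighborSet v).ncard ≤ D) (hD1 : 1 ≤ D)
    (q : ℝ) (hq0 : 0 ≤ q) (hq1 : q ≤ 1)
    (hyp : ∀ F : SimpleGraph (Fin n), F ≤ H →
      1 ≤ ((⊤ : SimpleGraph (Fin n)).copyCount F : ℝ) * q ^ F.edgeSet.ncard) :
    (H.labelledCopyCount P : ℝ) ≤
      (n.descFactorial (Fintype.card U) : ℝ) * (12 * (D : ℝ) * q) ^ P.edgeSet.ncard ∧
    Fintype.card U ≤ 2 * P.edgeSet.ncard := by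
  have hB4 := piece_le P hP H D hD q hq0 hq1 hyp
  have hedge : Fintype.card U ≤ P.edgeSet.ncard + 1 := by
    have h := hP.card_vert_le_card_edgeSet_add_one
    rw [Nat.card_eq_fintype_card, Nat.card_coe_set_eq] at h
    exact h
  refine ⟨?_, by omega⟩
  obtain ⟨j, hj⟩ : ∃ j, P.edgeSet.ncard = (Fintype.card U - 1) + j :=
    ⟨P.edgeSet.ncard - (Fintype.card U - 1), by omega⟩
  have h3 : (3 : ℝ) * (Fintype.card U : ℝ) ^ 2 ≤ 12 ^ (Fintype.card U - 1) := by
    exact_mod_cast three_sq_le (Fintype.card U) hU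
  have hDr : (1 : ℝ) ≤ (D : ℝ) := by exact_mod_cast hD1
  have hqx : q ≤ 12 * (D : ℝ) * q := by nlinarith
  have hd : (0 : ℝ) ≤ (n.descFactorial (Fintype.card U) : ℝ) := Nat.cast_nonneg _
  have hDk : (0 : ℝ) ≤ (D : ℝ) ^ (Fintype.card U - 1) := by positivity
  have hqj : q ^ j ≤ (12 * (D : ℝ) * q) ^ j := pow_le_pow_left₀ hq0 hqx j
  calc (H.labelledCopyCount P : ℝ)
      ≤ 3 * (Fintype.card U : ℝ) ^ 2 * (D : ℝ) ^ (Fintype.card U - 1) *
        (n.descFactorial (Fintype.card U) : ℝ) * q ^ P.edgeSet.ncard := hB4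
    _ = (n.descFactorial (Fintype.card U) : ℝ) *
        ((3 * (Fintype.card U : ℝ) ^ 2) * ((D : ℝ) ^ (Fintype.card U - 1)
          * q ^ (Fintype.card U - 1)) * q ^ j) := by
        rw [hj, pow_add]
        ring
    _ ≤ (n.descFactorial (Fintype.card U) : ℝ) *
        ((12 ^ (Fintype.card U - 1)) * ((D : ℝ) ^ (Fintype.card U - 1)
          * q ^ (Fintype.card U - 1)) * (12 * (D : ℝ) * q) ^ j) := by
        refine mul_le_mul_of_nonneg_left ?_ hd
        refine mul_le_mul (mul_le_mul_of_nonneg_right h3 (by positivity)) hqj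
          (pow_nonneg hq0 j) (by positivity)
    _ = (n.descFactorial (Fintype.card U) : ℝ) * (12 * (D : ℝ) * q) ^ P.edgeSet.ncard := by
        rw [hj, pow_add]
        ring

/-- A host without edges contains no labelled copy of a graph with an edge. -/
theorem labelled_eq_zero_of_no_edge {n : ℕ} (H F : SimpleGraph (Fin n))
    (hD : ∀ v, (H.neighborSet v).ncard ≤ 0) (he : 0 < F.edgeSet.ncard) :
    H.labelledCopyCount F = 0 := by
  rw [labelled_eq_natCard]
  have hempty : IsEmpty (SimpleGraph.Copy F H) := by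
    constructor
    intro f
    obtain ⟨e, he'⟩ : F.edgeSet.Nonempty := by
      by_contra hne
      rw [Set.not_nonempty_iff_eq_empty] at hne
      rw [hne, Set.ncard_empty] at he
      exact absurd he (lt_irrefl 0)
    induction e using Sym2.ind with
    | _ a b =>
      have hab : F.Adj a b := he'
      have hH : H.Adj (f a) (f b) := f.toHom.map_adj hab
      have h0 := hD (f a)
      have hmem : f b ∈ H.neighborSet (f a) := hH
      have hpos : 0 < (H.neighborSet (f a)).ncard :=
        (Set.ncard_pos (Set.toFinite _)).mpr ⟨_, hmem⟩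
      omega
  exact Nat.card_of_isEmpty

/-- B7: the labelled inequality for every `F` in a host of maximum degree at most `D`. -/
theorem bounded_degree_labelled {n : ℕ} (H : SimpleGraph (Fin n)) (D : ℕ)
    (hD : ∀ v, (H.neighborSet v).ncard ≤ D) (q : ℝ) (hq0 : 0 ≤ q)
    (hyp : ∀ F : SimpleGraph (Fin n), F ≤ H →
      1 ≤ ((⊤ : SimpleGraph (Fin n)).copyCount F : ℝ) * q ^ F.edgeSet.ncard)
    (F : SimpleGraph (Fin n)) :
    (H.labelledCopyCount F : ℝ) ≤
      ((⊤ : SimpleGraph (Fin n)).labelledCopyCount F : ℝ) *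
        (min 1 (89 * (D : ℝ) * q)) ^ F.edgeSet.ncard := by
  classical
  have hle := labelled_le_desc H F
  rw [labelled_top, Fintype.card_fin, Nat.descFactorial_self]
  rw [Fintype.card_fin, Nat.descFactorial_self] at hle
  have hle' : (H.labelledCopyCount F : ℝ) ≤ (n.factorial : ℝ) := by
    exact_mod_cast hle
  by_cases h1 : 1 ≤ 89 * (D : ℝ) * q
  · rw [min_eq_left h1, one_pow, mul_one]
    exact hle'
  · rw [min_eq_right (le_of_not_ge h1)]
    have h1' : 89 * (D : ℝ) * q < 1 := not_le.mp h1
    rcases Nat.eq_zero_or_pos D with hD0 | hDpos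
    · subst hD0
      rcases Nat.eq_zero_or_pos F.edgeSet.ncard with he | he
      · rw [he, pow_zero, mul_one]
        exact hle'
      · rw [labelled_eq_zero_of_no_edge H F hD he]
        simp only [Nat.cast_zero]
        positivity
    · have hDr : (1 : ℝ) ≤ (D : ℝ) := by exact_mod_cast hDpos
      have hq1 : q ≤ 1 := by nlinarith
      obtain ⟨m, W, hdisj, hconn, hcard, hsum⟩ := exists_pieces F
      have hB5 := count_of_pieces F H W hdisj
      rw [Fintype.card_fin] at hB5
      have hx0 : 0 ≤ 12 * (D : ℝ) * q := by positivity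
      have hpiece : ∀ i : Fin m,
          (H.labelledCopyCount (F.induce (W i : Set (Fin n))) : ℝ) ≤
            (n.descFactorial (W i).card : ℝ)
              * (12 * (D : ℝ) * q) ^ (F.induce (W i : Set (Fin n))).edgeSet.ncard ∧
          (W i).card ≤ 2 * (F.induce (W i : Set (Fin n))).edgeSet.ncard := by
        intro i
        have hc : Fintype.card (↥(W i : Set (Fin n))) = (W i).card := by simp
        have hp := piece_bound (F.induce (W i : Set (Fin n))) (hconn i)
          (by rw [hc]; exact hcard i) H D hD hDpos q hq0 hq1 hyp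
        rw [hc] at hp
        exact hp
      -- the total number of vertices of the pieces
      have hv : ∑ i, (W i).card ≤ n := by
        have h2 : (Finset.univ.biUnion W).card = ∑ i, (W i).card :=
          Finset.card_biUnion (fun i _ j _ hij => hdisj i j hij)
        rw [← h2]
        exact le_trans (Finset.card_le_univ _) (by simp)
      have hv2 : ∑ i, (W i).card ≤ 2 * F.edgeSet.ncard := by
        rw [← hsum, Finset.mul_sum]
        exact Finset.sum_le_sum (fun i _ => (hpiece i).2)
      have hB5' : (H.labelledCopyCount F : ℝ) ≤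
          (∏ i, (H.labelledCopyCount (F.induce (W i : Set (Fin n))) : ℝ))
            * ((n - ∑ i, (W i).card).factorial : ℝ) := by
        exact_mod_cast hB5
      have hprod : ∏ i, (H.labelledCopyCount (F.induce (W i : Set (Fin n))) : ℝ)
          ≤ ∏ i, ((n : ℝ) ^ (W i).card
              * (12 * (D : ℝ) * q) ^ (F.induce (W i : Set (Fin n))).edgeSet.ncard) := by
        refine Finset.prod_le_prod (fun i _ => Nat.cast_nonneg _) (fun i _ => ?_)
        refine le_trans (hpiece i).1 ?_
        refine mul_le_mul_of_nonneg_right ?_ (pow_nonneg hx0 _)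
        exact_mod_cast Nat.descFactorial_le_pow n (W i).card
      have hprod2 : ∏ i, ((n : ℝ) ^ (W i).card
              * (12 * (D : ℝ) * q) ^ (F.induce (W i : Set (Fin n))).edgeSet.ncard)
          = (n : ℝ) ^ (∑ i, (W i).card) * (12 * (D : ℝ) * q) ^ F.edgeSet.ncard := by
        rw [Finset.prod_mul_distrib, Finset.prod_pow_eq_pow_sum, Finset.prod_pow_eq_pow_sum,
          hsum]
      have hpow : (n : ℝ) ^ (∑ i, (W i).card)
          ≤ Real.exp 1 ^ (∑ i, (W i).card) * (n.descFactorial (∑ i, (W i).card) : ℝ) :=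
        pow_le_exp_desc n _ hv
      have he1 : (1 : ℝ) ≤ Real.exp 1 := Real.one_le_exp (by norm_num)
      have hexp : Real.exp 1 ^ (∑ i, (W i).card) ≤ Real.exp 1 ^ (2 * F.edgeSet.ncard) :=
        pow_le_pow_right₀ he1 hv2
      have hfact : ((n - ∑ i, (W i).card).factorial : ℝ)
          * (n.descFactorial (∑ i, (W i).card) : ℝ) = (n.factorial : ℝ) := by
        exact_mod_cast Nat.factorial_mul_descFactorial hv
      have hf0 : (0 : ℝ) ≤ ((n - ∑ i, (W i).card).factorial : ℝ) := Nat.cast_nonneg _
      have hd0 : (0 : ℝ) ≤ (n.descFactorial (∑ i, (W i).card) : ℝ) := Nat.cast_nonneg _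
      have hxe : (0 : ℝ) ≤ (12 * (D : ℝ) * q) ^ F.edgeSet.ncard := pow_nonneg hx0 _
      have h12 := exp_two_mul_twelve
      calc (H.labelledCopyCount F : ℝ)
          ≤ (∏ i, (H.labelledCopyCount (F.induce (W i : Set (Fin n))) : ℝ))
            * ((n - ∑ i, (W i).card).factorial : ℝ) := hB5'
        _ ≤ ((n : ℝ) ^ (∑ i, (W i).card) * (12 * (D : ℝ) * q) ^ F.edgeSet.ncard)
            * ((n - ∑ i, (W i).card).factorial : ℝ) := by
            rw [← hprod2]
            exact mul_le_mul_of_nonneg_right hprod hf0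
        _ ≤ ((Real.exp 1 ^ (2 * F.edgeSet.ncard)
              * (n.descFactorial (∑ i, (W i).card) : ℝ))
              * (12 * (D : ℝ) * q) ^ F.edgeSet.ncard)
            * ((n - ∑ i, (W i).card).factorial : ℝ) := by
            refine mul_le_mul_of_nonneg_right (mul_le_mul_of_nonneg_right ?_ hxe) hf0
            exact le_trans hpow (mul_le_mul_of_nonneg_right hexp hd0)
        _ = (n.factorial : ℝ) * (Real.exp 1 ^ 2 * (12 * (D : ℝ) * q)) ^ F.edgeSet.ncard := by
            rw [← hfact, pow_mul, mul_pow]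
            ring
        _ ≤ (n.factorial : ℝ) * (89 * (D : ℝ) * q) ^ F.edgeSet.ncard := by
            refine mul_le_mul_of_nonneg_left
              (pow_le_pow_left₀ (by positivity) ?_ _) (Nat.cast_nonneg _)
            have hDq : (0 : ℝ) ≤ (D : ℝ) * q := by positivity
            calc Real.exp 1 ^ 2 * (12 * (D : ℝ) * q)
                = (Real.exp 1 ^ 2 * 12) * ((D : ℝ) * q) := by ring
              _ ≤ 89 * ((D : ℝ) * q) := mul_le_mul_of_nonneg_right h12 hDq
              _ = 89 * (D : ℝ) * q := by ring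

end Vale.Agent.Lib.P064B
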