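import Mathlib

/-!
P064 (hosts of bounded degree): the number of copies of a connected graph with a prescribed image
of one vertex (growing a set one vertex at a time).
-/

namespace Vale.Agent.Lib.P064B
open SimpleGraph Finset

theorem rooted_copies_le {U : Type} [Fintype U] {n : ℕ} (P : SimpleGraph U) (hP : P.Connected)
    (H : SimpleGraph (Fin n)) (D : ℕ) (hD : ∀ v, (H.neighborSet v).ncard ≤ D) (u : U) (x : Fin n) :
    Nat.card {f : Copy P H // f u = x} ≤ D ^ (Fintype.card U - 1) := by
  classical
  -- all homomorphisms with `f u = x`, as functions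
  let 𝓕 : Finset (U → Fin n) :=
    Finset.univ.filter (fun f => f u = x ∧ ∀ a b, P.Adj a b → H.Adj (f a) (f b))
  have h𝓕 : ∀ f, f ∈ 𝓕 ↔ (f u = x ∧ ∀ a b, P.Adj a b → H.Adj (f a) (f b)) := by
    intro f
    simp [𝓕]
  let ρ : Finset U → (U → Fin n) → (U → Fin n) := fun S f a => if a ∈ S then f a else x
  have hρ : ∀ S f a, ρ S f a = if a ∈ S then f a else x := fun S f a => rfl
  let N : Fin n → Finset (Fin n) := fun v => (Set.toFinite (H.neighborSet v)).toFinset
  have hN : ∀ v, (N v).card ≤ D := by
    intro v
    have h1 := Set.ncard_eq_toFinset_card (H.neighborSet v) (Set.toFinite _)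
    rw [← h1]
    exact hD v
  have hNmem : ∀ v w, w ∈ N v ↔ H.Adj v w := by
    intro v w
    simp [N]
  have key : ∀ k : ℕ, k + 1 ≤ Fintype.card U →
      ∃ S : Finset U, u ∈ S ∧ S.card = k + 1 ∧ (𝓕.image (ρ S)).card ≤ D ^ k := by
    intro k
    induction k with
    | zero =>
      intro _
      refine ⟨{u}, Finset.mem_singleton_self u, Finset.card_singleton u, ?_⟩
      rw [pow_zero]
      apply Finset.card_le_one.mpr
      intro g hg g' hg'
      obtain ⟨f, hf, rfl⟩ := Finset.mem_image.mp hg
      obtain ⟨f', hf', rfl⟩ := Finset.mem_image.mp hg'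
      funext a
      rw [hρ, hρ]
      by_cases ha : a ∈ ({u} : Finset U)
      · rw [if_pos ha, if_pos ha]
        rw [Finset.mem_singleton] at ha
        rw [ha, ((h𝓕 f).mp hf).1, ((h𝓕 f').mp hf').1]
      · rw [if_neg ha, if_neg ha]
    | succ k ih =>
      intro hk
      obtain ⟨S, huS, hScard, hSle⟩ := ih (by omega)
      have hne : ∃ w, w ∉ S := by
        by_contra hall
        have hall' : ∀ w, w ∈ S := fun w => by
          by_contra hw
          exact hall ⟨w, hw⟩
        have hSu : S = Finset.univ := Finset.eq_univ_iff_forall.mpr hall'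
        rw [hSu, Finset.card_univ] at hScard
        omega
      obtain ⟨w, hw⟩ := hne
      obtain ⟨p⟩ := hP.preconnected u w
      obtain ⟨d, -, hd1, hd2⟩ := p.exists_boundary_dart (S : Set U) (Finset.mem_coe.mpr huS)
        (fun h => hw (Finset.mem_coe.mp h))
      have hzS : d.fst ∈ S := Finset.mem_coe.mp hd1
      have hyS : d.snd ∉ S := fun h => hd2 (Finset.mem_coe.mpr h)
      have hzy : P.Adj d.fst d.snd := d.adj
      refine ⟨insert d.snd S, Finset.mem_insert_of_mem huS, ?_, ?_⟩
      · rw [Finset.card_insert_of_notMem hyS, hScard]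
      · have hstep : (𝓕.image (ρ (insert d.snd S))).card ≤ (𝓕.image (ρ S)).card * D := by
          let T : Finset ((U → Fin n) × Fin n) :=
            (𝓕.image (ρ S)).biUnion (fun g => (N (g d.fst)).image (fun v => (g, v)))
          have hT : T.card ≤ (𝓕.image (ρ S)).card * D := by
            refine (Finset.card_biUnion_le).trans ?_
            refine (Finset.sum_le_sum
              (fun g _ => (Finset.card_image_le).trans (hN (g d.fst)))).trans ?_
            rw [Finset.sum_const, smul_eq_mul]
          have hres : ∀ f : U → Fin n, ρ S (ρ (insert d.snd S) f) = ρ S f := by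
            intro f
            funext a
            rw [hρ, hρ, hρ]
            by_cases ha : a ∈ S
            · rw [if_pos ha, if_pos ha, if_pos (Finset.mem_insert_of_mem ha)]
            · rw [if_neg ha, if_neg ha]
          have hval : ∀ f : U → Fin n, ρ (insert d.snd S) f d.snd = f d.snd := by
            intro f
            rw [hρ, if_pos (Finset.mem_insert_self _ _)]
          refine le_trans (Finset.card_le_card_of_injOn
            (fun g' : U → Fin n => (ρ S g', g' d.snd)) ?_ ?_) hT
          · intro g' hg'
            obtain ⟨f, hf, rfl⟩ := Finset.mem_image.mp (Finset.mem_coe.mp hg')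
            rw [Finset.mem_coe, Finset.mem_biUnion]
            refine ⟨ρ S f, Finset.mem_image_of_mem _ hf, ?_⟩
            rw [Finset.mem_image]
            refine ⟨f d.snd, ?_, ?_⟩
            · rw [hNmem, hρ, if_pos hzS]
              exact ((h𝓕 f).mp hf).2 _ _ hzy
            · show (ρ S f, f d.snd) = (ρ S (ρ (insert d.snd S) f), ρ (insert d.snd S) f d.snd)
              rw [hres, hval]
          · intro g1 hg1 g2 hg2 heq
            obtain ⟨f1, hf1, rfl⟩ := Finset.mem_image.mp (Finset.mem_coe.mp hg1)
            obtain ⟨f2, hf2, rfl⟩ := Finset.mem_image.mp (Finset.mem_coe.mp hg2)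
            simp only [Prod.mk.injEq] at heq
            obtain ⟨h1, h2⟩ := heq
            rw [hres, hres] at h1
            rw [hval, hval] at h2
            funext a
            rw [hρ, hρ]
            by_cases ha : a ∈ insert d.snd S
            · rw [if_pos ha, if_pos ha]
              rcases Finset.mem_insert.mp ha with rfl | haS
              · exact h2
              · have h3 := congrFun h1 a
                rw [hρ, hρ, if_pos haS, if_pos haS] at h3
                exact h3
            · rw [if_neg ha, if_neg ha]
        calc (𝓕.image (ρ (insert d.snd S))).card ≤ (𝓕.image (ρ S)).card * D := hstep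
          _ ≤ D ^ k * D := Nat.mul_le_mul_right D hSle
          _ = D ^ (k + 1) := (pow_succ D k).symm
  -- conclusion
  have hcard : 1 ≤ Fintype.card U := Fintype.card_pos_iff.mpr ⟨u⟩
  obtain ⟨S, -, hScard, hSle⟩ := key (Fintype.card U - 1) (by omega)
  have hSu : S = Finset.univ := by
    apply Finset.eq_univ_of_card
    omega
  have hid : 𝓕.image (ρ S) = 𝓕 := by
    have : ρ S = id := by
      funext f a
      rw [hρ, if_pos (by rw [hSu]; exact Finset.mem_univ a)]
      rfl
    rw [this, Finset.image_id]
  rw [hid] at hSle
  refine le_trans ?_ hSle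
  rw [← Nat.card_eq_finsetCard 𝓕]
  refine Nat.card_le_card_of_injective
    (fun f : {f : Copy P H // f u = x} =>
      (⟨fun a => f.1 a, (h𝓕 _).mpr ⟨f.2, fun a b hab => f.1.toHom.map_rel hab⟩⟩ : 𝓕)) ?_
  intro f g hfg
  apply Subtype.ext
  have h1 : (fun a => f.1 a) = (fun a => g.1 a) := congrArg Subtype.val hfg
  exact DFunLike.coe_injective h1

end Vale.Agent.Lib.P064B
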